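import Mathlib

namespace Vale.Agent.P315

/-- One unit-cost edit operation on strings (lists of symbols): insertion, deletion or
substitution of a single symbol at an arbitrary position. -/
inductive EditStep {A : Type} : List A → List A → Prop
  | ins (l r : List A) (a : A) : EditStep (l ++ r) (l ++ a :: r)
  | del (l r : List A) (a : A) : EditStep (l ++ a :: r) (l ++ r)
  | sub (l r : List A) (a b : A) : EditStep (l ++ a :: r) (l ++ b :: r)

/-- `EditChain k x y`: the string `x` is transformed into `y` by `k` successive edit operations. -/
inductive EditChain {A : Type} : ℕ → List A → List A → Prop
  | refl (x : List A) : EditChain 0 x x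
  | step {k : ℕ} {x y z : List A} : EditStep x y → EditChain k y z → EditChain (k + 1) x z

/-- Unit-cost edit distance: the least number of edit operations transforming `x` into `y`. -/
noncomputable def editDist {A : Type} (x y : List A) : ℕ := sInf {k | EditChain k x y}

/-- Deterministic decision trees over a set `P` of input positions whose only access to the input
is the test whether the symbols at two positions are equal; a leaf carries the output. -/
inductive EqTree (P : Type) : Type
  | leaf (out : ℝ) : EqTree P
  | node (p q : P) (ifEq ifNe : EqTree P) : EqTree P

/-- The output of the tree on the input `inp` (a symbol for every position). -/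
def EqTree.eval {P A : Type} [DecidableEq A] : EqTree P → (P → A) → ℝ
  | .leaf out, _ => out
  | .node p q t e, inp => if inp p = inp q then t.eval inp else e.eval inp

/-- Worst-case number of equality tests. -/
def EqTree.depth {P : Type} : EqTree P → ℕ
  | .leaf _ => 0
  | .node _ _ t e => max t.depth e.depth + 1

end Vale.Agent.P315
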