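import Vale.Agent.P315.Defs

namespace Vale.Agent.P315

variable {A : Type}

theorem EditStep.append_left (l : List A) {x y : List A} (h : EditStep x y) :
    EditStep (l ++ x) (l ++ y) := by
  cases h with
  | ins l' r a => simpa [List.append_assoc] using EditStep.ins (l ++ l') r a
  | del l' r a => simpa [List.append_assoc] using EditStep.del (l ++ l') r a
  | sub l' r a b => simpa [List.append_assoc] using EditStep.sub (l ++ l') r a b

theorem EditStep.append_right (r : List A) {x y : List A} (h : EditStep x y) :
    EditStep (x ++ r) (y ++ r) := by
  cases h with
  | ins l' r' a => simpa [List.append_assoc] using EditStep.ins l' (r' ++ r) a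
  | del l' r' a => simpa [List.append_assoc] using EditStep.del l' (r' ++ r) a
  | sub l' r' a b => simpa [List.append_assoc] using EditStep.sub l' (r' ++ r) a b

theorem EditChain.trans {j k : ℕ} {x y z : List A} (h1 : EditChain j x y) (h2 : EditChain k y z) :
    EditChain (j + k) x z := by
  induction h1 with
  | refl x => simpa using h2
  | step hs _ ih =>
    have := EditChain.step hs (ih h2)
    convert this using 1
    omega

theorem EditChain.append_left (l : List A) {k : ℕ} {x y : List A} (h : EditChain k x y) :
    EditChain k (l ++ x) (l ++ y) := by
  induction h with
  | refl x => exact EditChain.refl _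
  | step hs _ ih => exact EditChain.step (hs.append_left l) ih

theorem EditChain.append_right (r : List A) {k : ℕ} {x y : List A} (h : EditChain k x y) :
    EditChain k (x ++ r) (y ++ r) := by
  induction h with
  | refl x => exact EditChain.refl _
  | step hs _ ih => exact EditChain.step (hs.append_right r) ih

theorem chain_nil_right (x : List A) : EditChain x.length x [] := by
  induction x with
  | nil => exact EditChain.refl _
  | cons a x ih => exact EditChain.step (by simpa using EditStep.del [] x a) ih

theorem chain_nil_left (x : List A) : EditChain x.length [] x := by
  induction x with
  | nil => exact EditChain.refl _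
  | cons a x ih =>
    have h1 : EditChain 1 [] [a] := EditChain.step (by simpa using EditStep.ins [] [] a) (EditChain.refl _)
    have h2 : EditChain x.length ([a] ++ []) ([a] ++ x) := ih.append_left [a]
    have := h1.trans (by simpa using h2)
    simpa [Nat.add_comm] using this

theorem editDist_le_of_chain {k : ℕ} {x y : List A} (h : EditChain k x y) : editDist x y ≤ k :=
  Nat.sInf_le h

theorem chain_exists (x y : List A) : ∃ k, EditChain k x y :=
  ⟨_, (chain_nil_right x).trans (chain_nil_left y)⟩

theorem chain_editDist (x y : List A) : EditChain (editDist x y) x y :=
  Nat.sInf_mem (chain_exists x y)

theorem editDist_triangle (x y z : List A) : editDist x z ≤ editDist x y + editDist y z :=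
  editDist_le_of_chain ((chain_editDist x y).trans (chain_editDist y z))

theorem editDist_append_left (l x y : List A) : editDist (l ++ x) (l ++ y) ≤ editDist x y :=
  editDist_le_of_chain ((chain_editDist x y).append_left l)

theorem editDist_append_right (r x y : List A) : editDist (x ++ r) (y ++ r) ≤ editDist x y :=
  editDist_le_of_chain ((chain_editDist x y).append_right r)

theorem editDist_self (x : List A) : editDist x x = 0 :=
  Nat.le_zero.mp (editDist_le_of_chain (EditChain.refl x))

/-- Deleting a suffix. -/
theorem editDist_append_self_left (x r : List A) : editDist (x ++ r) x ≤ r.length := by
  have := (chain_nil_right r).append_left x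
  simpa using editDist_le_of_chain this

/-- Inserting at the front. -/
theorem editDist_self_append_right (l y : List A) : editDist y (l ++ y) ≤ l.length := by
  have := (chain_nil_left l).append_right y
  simpa using editDist_le_of_chain this

/-- A potential argument: one edit operation changes the number of symbols with a given
property by at most one. -/
theorem EditStep.countP_le (p : A → Bool) {x y : List A} (h : EditStep x y) :
    x.countP p ≤ y.countP p + 1 := by
  cases h with
  | ins l r a =>
    simp only [List.countP_append, List.countP_cons]
    omega
  | del l r a =>
    simp only [List.countP_append, List.countP_cons]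
    split <;> omega
  | sub l r a b =>
    simp only [List.countP_append, List.countP_cons]
    split <;> split <;> omega

theorem EditChain.countP_le (p : A → Bool) {k : ℕ} {x y : List A} (h : EditChain k x y) :
    x.countP p ≤ y.countP p + k := by
  induction h with
  | refl x => simp
  | step hs _ ih =>
    have := hs.countP_le p
    omega

theorem countP_le_editDist (p : A → Bool) (x y : List A) :
    x.countP p ≤ y.countP p + editDist x y :=
  (chain_editDist x y).countP_le p

/-- Hamming bound, in the form of functions on an initial segment of the naturals. -/
theorem editDist_map_range_le [DecidableEq A] (u v : ℕ → A) (m : ℕ) :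
    editDist ((List.range m).map u) ((List.range m).map v)
      ≤ ((Finset.range m).filter (fun i => u i ≠ v i)).card := by
  induction m with
  | zero => simp [editDist_self]
  | succ m ih =>
    rw [List.range_succ, List.map_append, List.map_append, Finset.range_add_one, Finset.filter_insert]
    simp only [List.map_cons, List.map_nil]
    have h1 : editDist ((List.range m).map u ++ [u m]) ((List.range m).map v ++ [u m])
        ≤ editDist ((List.range m).map u) ((List.range m).map v) := editDist_append_right _ _ _
    by_cases h : u m = v m
    · rw [if_neg (by simpa using h), ← h]
      exact h1.trans ih
    · rw [if_pos h, Finset.card_insert_of_notMem (by simp)]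
      have h2 : editDist ((List.range m).map v ++ [u m]) ((List.range m).map v ++ [v m]) ≤ 1 :=
        editDist_le_of_chain
          (EditChain.step (EditStep.sub ((List.range m).map v) [] (u m) (v m)) (EditChain.refl _))
      have := editDist_triangle ((List.range m).map u ++ [u m]) ((List.range m).map v ++ [u m])
        ((List.range m).map v ++ [v m])
      omega

/-- Aligning along the diagonal of shift `s`. -/
theorem editDist_shift_le [DecidableEq A] (x y : ℕ → A) (m s : ℕ) :
    editDist ((List.range (m + s)).map x) ((List.range (s + m)).map y)
      ≤ 2 * s + ((Finset.range m).filter (fun i => x i ≠ y (s + i))).card := by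
  rw [List.range_add, List.range_add, List.map_append, List.map_append, List.map_map, List.map_map]
  have h1 := editDist_append_self_left ((List.range m).map x) ((List.range s).map (x ∘ fun i => m + i))
  have h2 := editDist_map_range_le x (fun i => y (s + i)) m
  have h3 := editDist_self_append_right ((List.range s).map y) ((List.range m).map (y ∘ fun i => s + i))
  have h4 := editDist_triangle ((List.range m).map x ++ (List.range s).map (x ∘ fun i => m + i))
    ((List.range m).map x) ((List.range s).map y ++ (List.range m).map (y ∘ fun i => s + i))
  have h5 := editDist_triangle ((List.range m).map x) ((List.range m).map (y ∘ fun i => s + i))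
    ((List.range s).map y ++ (List.range m).map (y ∘ fun i => s + i))
  simp only [List.length_map, List.length_range] at h1 h3
  have h6 : (y ∘ fun i => s + i) = fun i => y (s + i) := rfl
  rw [h6] at h3 h4 h5 ⊢
  omega

end Vale.Agent.P315
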