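import Vale.Agent.P315.Tree

namespace Vale.Agent.P315

open Finset

section adversary

variable (n : ℕ)

/-- first string of the all-distinct input -/
def xA : Fin n → Fin (2 * n) := fun i => ⟨i.val, by omega⟩

/-- second string of the all-distinct input -/
def yA : Fin n → Fin (2 * n) := fun j => ⟨n + j.val, by omega⟩

open Classical in
/-- second string of the planted input: copy the first string along the diagonal of shift `s`
except at the pairs in `Q`. -/
noncomputable def yB (Q : Finset (Fin n × Fin n)) (s : ℕ) : Fin n → Fin (2 * n) := fun j =>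
  if (∃ i : Fin n, s + i.val = j.val ∧ (i, j) ∉ Q) then ⟨j.val - s, by omega⟩
  else ⟨n + j.val, by omega⟩

theorem le_editDist_A : n ≤ editDist (List.ofFn (xA n)) (List.ofFn (yA n)) := by
  have h := countP_le_editDist (fun a : Fin (2 * n) => decide (a.val < n))
    (List.ofFn (xA n)) (List.ofFn (yA n))
  have h1 : (List.ofFn (xA n)).countP (fun a : Fin (2 * n) => decide (a.val < n)) = n := by
    have : (List.ofFn (xA n)).countP (fun a : Fin (2 * n) => decide (a.val < n))
        = (List.ofFn (xA n)).length := by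
      rw [List.countP_eq_length]
      intro a ha
      rw [List.mem_ofFn] at ha
      obtain ⟨i, rfl⟩ := ha
      simp [xA]
    simpa using this
  have h2 : (List.ofFn (yA n)).countP (fun a : Fin (2 * n) => decide (a.val < n)) = 0 := by
    rw [List.countP_eq_zero]
    intro a ha
    rw [List.mem_ofFn] at ha
    obtain ⟨i, rfl⟩ := ha
    simp [yA]
  omega

theorem yB_val (Q : Finset (Fin n × Fin n)) (s : ℕ) (j : Fin n) :
    ((∃ i : Fin n, s + i.val = j.val ∧ (i, j) ∉ Q) ∧ (yB n Q s j).val = j.val - s) ∨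
    ((¬ ∃ i : Fin n, s + i.val = j.val ∧ (i, j) ∉ Q) ∧ (yB n Q s j).val = n + j.val) := by
  unfold yB
  by_cases h : ∃ i : Fin n, s + i.val = j.val ∧ (i, j) ∉ Q
  · left; exact ⟨h, by rw [if_pos h]⟩
  · right; exact ⟨h, by rw [if_neg h]⟩

theorem yB_injective (Q : Finset (Fin n × Fin n)) (s : ℕ) : Function.Injective (yB n Q s) := by
  intro j j' h
  have hv : (yB n Q s j).val = (yB n Q s j').val := by rw [h]
  rcases yB_val n Q s j with ⟨⟨i, hi, _⟩, h1⟩ | ⟨_, h1⟩ <;>
  rcases yB_val n Q s j' with ⟨⟨i', hi', _⟩, h2⟩ | ⟨_, h2⟩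
  · apply Fin.ext; omega
  · exfalso; have := j.isLt; omega
  · exfalso; have := j'.isLt; omega
  · apply Fin.ext; omega

theorem xA_ne_yB_of_mem (Q : Finset (Fin n × Fin n)) (s : ℕ) (i j : Fin n) (h : (i, j) ∈ Q) :
    xA n i ≠ yB n Q s j := by
  intro he
  have hv : (xA n i).val = (yB n Q s j).val := by rw [he]
  simp only [xA] at hv
  rcases yB_val n Q s j with ⟨⟨i', hi', hQ⟩, h1⟩ | ⟨_, h1⟩
  · have : i = i' := by apply Fin.ext; omega
    subst this
    exact hQ h
  · have := i.isLt; omega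

theorem mem_of_xA_ne_yB (Q : Finset (Fin n × Fin n)) (s : ℕ) (i j : Fin n) (hij : s + i.val = j.val)
    (h : xA n i ≠ yB n Q s j) : (i, j) ∈ Q := by
  by_contra hQ
  apply h
  apply Fin.ext
  simp only [xA]
  rcases yB_val n Q s j with ⟨_, h1⟩ | ⟨hno, _⟩
  · omega
  · exact absurd ⟨i, hij, hQ⟩ hno

theorem xA_ne_yA (i j : Fin n) : xA n i ≠ yA n j := by
  intro he
  have hv : (xA n i).val = (yA n j).val := by rw [he]
  simp only [xA, yA] at hv
  have := i.isLt
  omega

theorem yA_injective : Function.Injective (yA n) := by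
  intro j j' h
  have hv : (yA n j).val = (yA n j').val := by rw [h]
  simp only [yA] at hv
  apply Fin.ext; omega

end adversary

/-- the set of cross pairs tested on the all-distinct input -/
noncomputable def crossSet {n : ℕ} (L : List ((Fin n ⊕ Fin n) × (Fin n ⊕ Fin n))) :
    Finset (Fin n × Fin n) := by
  classical
  exact univ.filter (fun ij : Fin n × Fin n =>
    (Sum.inl ij.1, Sum.inr ij.2) ∈ L ∨ (Sum.inr ij.2, Sum.inl ij.1) ∈ L)

theorem card_crossSet_le {n : ℕ} (L : List ((Fin n ⊕ Fin n) × (Fin n ⊕ Fin n))) :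
    (crossSet L).card ≤ L.length := by
  classical
  refine le_trans ?_ (List.toFinset_card_le L)
  apply Finset.card_le_card_of_injOn
    (fun ij : Fin n × Fin n => if (Sum.inl ij.1, Sum.inr ij.2) ∈ L
      then ((Sum.inl ij.1 : Fin n ⊕ Fin n), (Sum.inr ij.2 : Fin n ⊕ Fin n))
      else (Sum.inr ij.2, Sum.inl ij.1))
  · intro ij hij
    simp only [crossSet, Finset.coe_filter, Finset.mem_univ, true_and, Set.mem_ofPred_eq] at hij
    simp only [Finset.mem_coe, List.mem_toFinset]
    split
    · assumption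
    · tauto
  · intro a _ b _ hab
    simp only at hab
    split at hab <;> split at hab <;> simp at hab <;> exact Prod.ext (by tauto) (by tauto)

theorem shift_bound (n : ℕ) (c : ℝ) (hc : 1 ≤ c) (T : EqTree (Fin n ⊕ Fin n))
    (hT : ∀ x y : Fin n → Fin (2 * n),
      (editDist (List.ofFn x) (List.ofFn y) : ℝ) ≤ T.eval (Sum.elim x y) ∧
      T.eval (Sum.elim x y) ≤ c * editDist (List.ofFn x) (List.ofFn y))
    (s : ℕ) (hs : s ≤ n) :
    (n : ℝ) ≤ c * (2 * s + (((crossSet (T.path (Sum.elim (xA n) (yA n)))).filter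
      (fun ij => ij.2.val - ij.1.val = s)).card : ℝ)) := by
  classical
  set L := T.path (Sum.elim (xA n) (yA n)) with hL
  set Q := crossSet L with hQ
  have hmemQ1 : ∀ i j, ((Sum.inl i : Fin n ⊕ Fin n), (Sum.inr j : Fin n ⊕ Fin n)) ∈ L → (i, j) ∈ Q := by
    intro i j h
    simp only [hQ, crossSet, Finset.mem_filter, Finset.mem_univ, true_and]
    exact Or.inl h
  have hmemQ2 : ∀ i j, ((Sum.inr j : Fin n ⊕ Fin n), (Sum.inl i : Fin n ⊕ Fin n)) ∈ L → (i, j) ∈ Q := by
    intro i j h
    simp only [hQ, crossSet, Finset.mem_filter, Finset.mem_univ, true_and]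
    exact Or.inr h
  have heval : T.eval (Sum.elim (xA n) (yB n Q s)) = T.eval (Sum.elim (xA n) (yA n)) := by
    apply EqTree.eval_congr
    rintro ⟨p, q⟩ hpq
    rcases p with i | j <;> rcases q with i' | j'
    · simp
    · simp only [Sum.elim_inl, Sum.elim_inr]
      constructor
      · intro h; exact absurd h (xA_ne_yA n i j')
      · intro h; exact absurd h (xA_ne_yB_of_mem n Q s i j' (hmemQ1 _ _ hpq))
    · simp only [Sum.elim_inl, Sum.elim_inr]
      constructor
      · intro h; exact absurd h.symm (xA_ne_yA n i' j)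
      · intro h; exact absurd h.symm (xA_ne_yB_of_mem n Q s i' j (hmemQ2 _ _ hpq))
    · simp only [Sum.elim_inr]
      rw [(yA_injective n).eq_iff, (yB_injective n Q s).eq_iff]
  have h1 := (hT (xA n) (yA n)).1
  have h2 := (hT (xA n) (yB n Q s)).2
  have h3 : (n : ℝ) ≤ editDist (List.ofFn (xA n)) (List.ofFn (yA n)) := by
    exact_mod_cast le_editDist_A n
  have h4 := editDist_ofFn_shift_le (xA n) (yB n Q s) s hs
  have h5 : (univ.filter (fun i : Fin n => ∃ h : s + i < n, xA n i ≠ yB n Q s ⟨s + i, h⟩)).card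
      ≤ (Q.filter (fun ij => ij.2.val - ij.1.val = s)).card := by
    refine le_trans (Finset.card_le_card ?_) (Finset.card_image_le (f := Prod.fst))
    intro i hi
    simp only [Finset.mem_filter, Finset.mem_univ, true_and] at hi
    obtain ⟨h, hne⟩ := hi
    simp only [Finset.mem_image, Finset.mem_filter]
    refine ⟨(i, ⟨s + i, h⟩), ⟨mem_of_xA_ne_yB n Q s i ⟨s + i, h⟩ rfl hne, ?_⟩, rfl⟩
    simp
  have h6 : (editDist (List.ofFn (xA n)) (List.ofFn (yB n Q s)) : ℝ)
      ≤ 2 * s + ((Q.filter (fun ij => ij.2.val - ij.1.val = s)).card : ℝ) := by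
    exact_mod_cast h4.trans (by omega)
  calc (n : ℝ) ≤ T.eval (Sum.elim (xA n) (yA n)) := h3.trans h1
    _ = T.eval (Sum.elim (xA n) (yB n Q s)) := heval.symm
    _ ≤ c * editDist (List.ofFn (xA n)) (List.ofFn (yB n Q s)) := h2
    _ ≤ _ := by
      apply mul_le_mul_of_nonneg_left h6 (by linarith)

theorem main_lower_bound (n : ℕ) (c : ℝ) (hc : 1 ≤ c) (T : EqTree (Fin n ⊕ Fin n))
    (hT : ∀ x y : Fin n → Fin (2 * n),
      (editDist (List.ofFn x) (List.ofFn y) : ℝ) ≤ T.eval (Sum.elim x y) ∧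
      T.eval (Sum.elim x y) ≤ c * editDist (List.ofFn x) (List.ofFn y)) :
    (n : ℝ) ^ 2 / (4 * c ^ 2) ≤ T.depth := by
  classical
  have hc0 : 0 < c := by linarith
  set Q := crossSet (T.path (Sum.elim (xA n) (yA n))) with hQ
  have hQcard : (Q.card : ℝ) ≤ T.depth := by
    exact_mod_cast (card_crossSet_le _).trans (EqTree.path_length_le _ _)
  set t : ℝ := n / (2 * c) with ht
  have ht0 : 0 ≤ t := by positivity
  set S : ℕ := ⌈t⌉₊ with hS
  have hS1 : t ≤ S := Nat.le_ceil t
  have hS2 : (S : ℝ) < t + 1 := Nat.ceil_lt_add_one ht0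
  have htn : t ≤ n := by
    rw [ht, div_le_iff₀ (by positivity)]
    have : (0 : ℝ) ≤ n := Nat.cast_nonneg n
    nlinarith
  have hSn : S ≤ n := by
    rw [hS]
    exact Nat.ceil_le.mpr htn
  have hsum : ∑ s ∈ Finset.range S, (n : ℝ)
      ≤ ∑ s ∈ Finset.range S, c * (2 * s + ((Q.filter (fun ij => ij.2.val - ij.1.val = s)).card : ℝ)) := by
    apply Finset.sum_le_sum
    intro s hs
    exact shift_bound n c hc T hT s (by have := Finset.mem_range.mp hs; omega)
  rw [Finset.sum_const, Finset.card_range, nsmul_eq_mul, ← Finset.mul_sum, Finset.sum_add_distrib,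
    ← Finset.mul_sum] at hsum
  have hfib : (∑ s ∈ Finset.range S, ((Q.filter (fun ij => ij.2.val - ij.1.val = s)).card : ℝ))
      ≤ Q.card := by
    have := Finset.sum_card_fiberwise_eq_card_filter Q (Finset.range S)
      (fun ij : Fin n × Fin n => ij.2.val - ij.1.val)
    have h2 : (Q.filter (fun ij => ij.2.val - ij.1.val ∈ Finset.range S)).card ≤ Q.card :=
      Finset.card_filter_le _ _
    exact_mod_cast this ▸ h2
  have hgauss : (2 : ℝ) * ∑ s ∈ Finset.range S, (s : ℝ) = S * (S - 1) := by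
    have := Finset.sum_range_id_mul_two S
    rcases Nat.eq_zero_or_pos S with h0 | hpos
    · simp [h0]
    · have h1 : ((∑ i ∈ Finset.range S, i : ℕ) : ℝ) * 2 = (S : ℝ) * ((S - 1 : ℕ) : ℝ) := by
        exact_mod_cast this
      rw [Nat.cast_sub hpos] at h1
      push_cast at h1
      linarith
  rw [hgauss] at hsum
  -- S * n ≤ c * (S (S-1) + q)
  have hq : (S : ℝ) * n ≤ c * (S * (S - 1) + T.depth) := by
    refine hsum.trans ?_
    apply mul_le_mul_of_nonneg_left _ hc0.le
    linarith
  have hn : (n : ℝ) = 2 * c * t := by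
    rw [ht]; field_simp
  have hgoal : (n : ℝ) ^ 2 / (4 * c ^ 2) = t ^ 2 := by
    rw [ht]; field_simp; ring
  rw [hgoal]
  -- from hq: S * 2 c t ≤ c (S(S-1) + q)  =>  2 S t ≤ S (S-1) + q
  rw [hn] at hq
  have hq' : (S : ℝ) * (2 * t) ≤ S * (S - 1) + T.depth := by
    have : c * ((S : ℝ) * (2 * t)) ≤ c * (S * (S - 1) + T.depth) := by linarith
    exact le_of_mul_le_mul_left this hc0
  have hd : 0 ≤ (S : ℝ) - t := by linarith
  have hd1 : (S : ℝ) - t ≤ 1 := by linarith
  nlinarith [mul_nonneg hd (sub_nonneg.mpr hd1)]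

end Vale.Agent.P315
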