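import Vale.Agent.P315.Edit

namespace Vale.Agent.P315

open Finset

/-- The list of tests made by the tree on a given input. -/
def EqTree.path {P A : Type} [DecidableEq A] : EqTree P → (P → A) → List (P × P)
  | .leaf _, _ => []
  | .node p q t e, inp => (p, q) :: (if inp p = inp q then t.path inp else e.path inp)

theorem EqTree.path_length_le {P A : Type} [DecidableEq A] (T : EqTree P) (inp : P → A) :
    (T.path inp).length ≤ T.depth := by
  induction T with
  | leaf out => simp [EqTree.path, EqTree.depth]
  | node p q t e iht ihe =>
    simp only [EqTree.path, EqTree.depth, List.length_cons]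
    split <;> omega

theorem EqTree.eval_congr {P A : Type} [DecidableEq A] (T : EqTree P) (inp inp' : P → A)
    (h : ∀ pq ∈ T.path inp, (inp pq.1 = inp pq.2 ↔ inp' pq.1 = inp' pq.2)) :
    T.eval inp' = T.eval inp := by
  induction T with
  | leaf out => simp [EqTree.eval]
  | node p q t e iht ihe =>
    have h0 := h (p, q) (by simp [EqTree.path])
    simp only at h0
    by_cases hpq : inp p = inp q
    · have hpq' := h0.mp hpq
      simp only [EqTree.eval, if_pos hpq, if_pos hpq']
      apply iht
      intro pq hmem
      apply h
      simp [EqTree.path, if_pos hpq, hmem]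
    · have hpq' : ¬ inp' p = inp' q := fun hh => hpq (h0.mpr hh)
      simp only [EqTree.eval, if_neg hpq, if_neg hpq']
      apply ihe
      intro pq hmem
      apply h
      simp [EqTree.path, if_neg hpq, hmem]

/-- `List.ofFn` as a map over `List.range`. -/
theorem ofFn_eq_map_range {A : Type} {n : ℕ} (x : Fin n → A) (x' : ℕ → A)
    (h : ∀ i : Fin n, x' i = x i) : List.ofFn x = (List.range n).map x' := by
  rw [List.ofFn_eq_map, ← List.map_coe_finRange_eq_range, List.map_map]
  apply List.map_congr_left
  intro i _
  exact (h i).symm

/-- Aligning along the diagonal of shift `s`, for strings given as functions on `Fin n`. -/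
theorem editDist_ofFn_shift_le {A : Type} [DecidableEq A] {n : ℕ} (x y : Fin n → A) (s : ℕ)
    (hs : s ≤ n) :
    editDist (List.ofFn x) (List.ofFn y)
      ≤ 2 * s + (univ.filter (fun i : Fin n => ∃ h : s + i < n, x i ≠ y ⟨s + i, h⟩)).card := by
  rcases Nat.eq_zero_or_pos n with rfl | hn
  · simp [editDist_self]
  · set a0 : A := x ⟨0, hn⟩
    set x' : ℕ → A := fun i => if h : i < n then x ⟨i, h⟩ else a0 with hx'
    set y' : ℕ → A := fun i => if h : i < n then y ⟨i, h⟩ else a0 with hy'
    have hx : List.ofFn x = (List.range n).map x' :=
      ofFn_eq_map_range x x' (fun i => by simp [hx'])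
    have hy : List.ofFn y = (List.range n).map y' :=
      ofFn_eq_map_range y y' (fun i => by simp [hy'])
    obtain ⟨m, rfl⟩ : ∃ m, n = m + s := ⟨n - s, by omega⟩
    have key := editDist_shift_le x' y' m s
    rw [hx, hy]
    have hcomm : List.range (m + s) = List.range (s + m) := by rw [Nat.add_comm]
    have hcard : ((Finset.range m).filter (fun i => x' i ≠ y' (s + i))).card
        ≤ (univ.filter (fun i : Fin (m + s) => ∃ h : s + i < m + s, x i ≠ y ⟨s + i, h⟩)).card := by
      rw [← Finset.card_map Fin.valEmbedding]
      apply Finset.card_le_card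
      intro i hi
      simp only [Finset.mem_filter, Finset.mem_range] at hi
      obtain ⟨him, hne⟩ := hi
      simp only [Finset.mem_map, Finset.mem_filter, Finset.mem_univ, true_and,
        Fin.valEmbedding_apply]
      refine ⟨⟨i, by omega⟩, ⟨by simp only []; omega, ?_⟩, rfl⟩
      have h1 : i < m + s := by omega
      have h2 : s + i < m + s := by omega
      simpa [hx', hy', h1, h2] using hne
    calc editDist ((List.range (m + s)).map x') ((List.range (m + s)).map y')
        = editDist ((List.range (m + s)).map x') ((List.range (s + m)).map y') := by rw [hcomm]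
      _ ≤ _ := key
      _ ≤ _ := by omega

end Vale.Agent.P315
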